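import Vale.Agent.P240.R2.H938.M6
import Vale.Agent.P240.R2.H296.StmtsB
import Vale.Agent.P240.R2.H296.Cen

/-!
Module B4: the groups between `Ω_n(q)` and `SO_n(q)`, `n` odd, have the Quillen dimension property
at `2`.
-/

set_option autoImplicit false

namespace Vale.Agent.P240.R2.H620

open Finset Matrix Vale.Agent.P240 Vale.Agent.P240.K Vale.Agent.P240.R2.AS
open Vale.Agent.P240.R2.H986 (ev ev_eq_zero)
open Vale.Agent.P240.R2.H275 (QuillenDim quillenDim_of_rat)
open Vale.Agent.P240.R2.H938 (qd_of exists_z stmtSUB)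
open scoped Classical

universe u v

lemma two_ne {K : Type u} [Field K] [Fintype K] (hodd : Odd (Nat.card K)) : (2 : K) ≠ 0 := by
  intro h2
  have h3 : ringChar K = 2 := CharP.ringChar_of_prime_eq_zero Nat.prime_two (by exact_mod_cast h2)
  have h4 : CharP K 2 := ringChar.of_eq h3
  have h5 : 2 ∣ Nat.card K := by
    rw [Nat.card_eq_fintype_card]
    obtain ⟨n, hp, hc⟩ := FiniteField.card K 2
    rw [hc]
    exact dvd_pow_self 2 n.ne_zero
  exact (Nat.not_even_iff_odd.2 hodd) (even_iff_two_dvd.2 h5)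

lemma neg_one_ne_one {K : Type u} [Field K] (h2 : (2 : K) ≠ 0) : (-1 : K) ≠ 1 := by
  intro h
  apply h2
  have h3 : (1 : K) + 1 = 0 := by
    nth_rewrite 1 [← h]
    exact neg_add_cancel 1
  rw [← h3, one_add_one_eq_two]

/-- **Module B4.** -/
theorem stmtB4 (hB1 : StmtB1.{u}) (hB2 : StmtB2.{u}) (hB3 : StmtB3.{u}) : StmtB4.{u, v} := by
  intro K _ _ _ hs hodd hK n hn H hH 𝕜 _
  apply quillenDim_of_rat
  have h2 := two_ne hodd
  have h1 := neg_one_ne_one h2
  have h3 : (-1 : K) * star (-1 : K) = 1 := by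
    rw [hs, neg_one_mul, neg_neg]
  have hn1 : 1 ≤ n := hn.pos
  have hC := hB2 K hs hodd n hn1
  haveI : Finite (GU K n) := by
    haveI : Finite (Matrix (Fin n) (Fin n) K) := inferInstanceAs (Finite (Fin n → Fin n → K))
    infer_instance
  haveI : Finite (PGU K n) := inferInstanceAs (Finite (GU K n ⧸ Subgroup.center (GU K n)))
  haveI : Fact (Nat.Prime 2) := ⟨Nat.prime_two⟩
  have hn4 : n ≠ 2 ∧ n ≠ 4 := by
    constructor <;> · rintro rfl; revert hn; decide
  refine qd_of H (n - 1) (fun E _ hE1 hE2 => ?_) ?_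
  · have h := H296.rank_center (K := K) (ι := Fin n) (p := 2) (by exact_mod_cast h2) h1 h3
      (by rw [Fintype.card_fin]; exact fun _ => hn4) E hE1 hE2
    rwa [Fintype.card_fin] at h
  rcases Nat.lt_or_ge n 2 with hn1' | hn2
  · have hn1'' : n = 1 := by omega
    subst hn1''
    refine ⟨Finsupp.single [] 1, ?_, ?_, ?_⟩
    · intro l hl
      rw [Finsupp.support_single_ne_zero _ one_ne_zero, Finset.mem_singleton] at hl
      subst hl
      exact ⟨rfl, List.Pairwise.nil⟩
    · simp
    · simp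
  · have ht : 0 < t (Fr K n) := by
      have h4 := hB1 K hs hodd hK n hn2
      by_contra h0
      have h5 : t (Fr K n) = 0 := by omega
      rw [h5, mul_zero] at h4
      exact Nat.not_lt_zero _ h4
    obtain ⟨z, hz, f, hf, hev⟩ := exists_z hC.perm ht
    exact stmtSUB 2 n (PGU K n) (Ln K n) (Fr K n) (eW (-1)) hn1 hC H (fun u v huv =>
      hH (hB3 K hs hodd n hn u (List.pairwise_append.1 ((mem_Fr K).1 huv).2).1)) z hz f hf hev

end Vale.Agent.P240.R2.H620
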