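import Vale.Agent.P240.R2.H620.B4
import Vale.Agent.P240.R2.H387.B1
import Vale.Agent.P240.R2.H275.M4cB
import Vale.Agent.P240.R2.H221.B3

/-!
`StmtB4` without hypotheses.
-/

set_option autoImplicit false

namespace Vale.Agent.P240.R2.H620

universe u v

/-- the groups between `Ω_n(q)` and `SO_n(q)`, `n` odd, `q ≥ 11` odd -/
theorem b4 : AS.StmtB4.{u, v} := stmtB4 H387.stmtB1 H275.stmtB2 H221.stmtB3

end Vale.Agent.P240.R2.H620
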