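import Vale.Agent.P240.MathlibUsed
import Mathlib.FieldTheory.Finite.GaloisField

set_option autoImplicit false

namespace Vale.Agent.P240.R2.H620

/-- the hypotheses on the field are satisfied for every prime power -/
theorem stmtEX : ∀ (r m : ℕ), r.Prime → 1 ≤ m → ∃ (K : Type) (_ : Field K) (_ : Fintype K)
    (_ : StarRing K), Nat.card K = (r ^ m) ^ 2 ∧ ∀ x : K, star x = x ^ (r ^ m) := by
  intro r m hr hm
  haveI : Fact r.Prime := ⟨hr⟩
  have hcard : Nat.card (GaloisField r (2 * m)) = r ^ (2 * m) :=
    GaloisField.card r (2 * m) (by omega)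
  haveI : Finite (GaloisField r (2 * m)) := Nat.finite_of_card_ne_zero (by
    rw [hcard]; exact (pow_pos hr.pos _).ne')
  letI : Fintype (GaloisField r (2 * m)) := Fintype.ofFinite _
  have hcard' : Fintype.card (GaloisField r (2 * m)) = r ^ (2 * m) := by
    rw [← Nat.card_eq_fintype_card, hcard]
  have hinv : ∀ x : GaloisField r (2 * m), (x ^ r ^ m) ^ r ^ m = x := by
    intro x
    rw [← pow_mul, ← pow_add, ← two_mul, ← hcard']
    exact FiniteField.pow_card x
  letI S : StarRing (GaloisField r (2 * m)) :=
    { star := fun x => x ^ r ^ m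
      star_involutive := hinv
      star_mul := fun x y => by
        show (x * y) ^ r ^ m = y ^ r ^ m * x ^ r ^ m
        rw [mul_pow]
        exact mul_comm _ _
      star_add := fun x y => by
        show (x + y) ^ r ^ m = x ^ r ^ m + y ^ r ^ m
        exact add_pow_char_pow x y r m }
  refine ⟨GaloisField r (2 * m), inferInstance, inferInstance, S, ?_, fun x => rfl⟩
  rw [hcard, ← pow_mul, mul_comm]

end Vale.Agent.P240.R2.H620
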